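import Vale.Agent.P073.RT.Rows
import Vale.Agent.P073.PR.Boxes

/-!
# P073, theorem (RT), row T1: the tiles of a box complex are the cells of a cell decomposition
-/

open Set Metric Topology Filter

namespace Vale.Agent.P073.RT.H741

open Vale.Agent.P073.St (V)
open _root_.P073 (ConBall)
open _root_.P073.PR720 (LF)
open _root_.P073.PA691 (BoxCx Cells)

variable {Ω : Set V} {v : V} (X : BoxCx Ω v)

theorem s_le (s : X.S) (k : Fin 3) : X.slo s k ≤ X.shi s k := by
  by_cases h : k = X.nrm s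
  · subst h; exact (X.s_flat s).le
  · exact (X.s_lt s k h).le

theorem sqo_sub (s : X.S) : X.sqo s ⊆ X.sq s := by
  rintro x ⟨h1, h2⟩
  refine ⟨fun k => ?_, fun k => ?_⟩ <;> by_cases hk : k = X.nrm s
  · subst hk; exact h1.ge
  · exact (h2 k hk).1.le
  · subst hk; exact h1.le.trans (X.s_flat s).le
  · exact (h2 k hk).2.le

theorem sdiff_sqo (s : X.S) : X.sq s \ (X.sq s \ X.sqo s) = X.sqo s := by
  rw [sdiff_sdiff_right_self]
  exact inter_eq_right.2 (sqo_sub X s)

theorem sqo_eq (s : X.S) : X.sqo s =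
    pi univ (fun k => if k = X.nrm s then {X.slo s k} else Ioo (X.slo s k) (X.shi s k)) := by
  ext x
  constructor
  · rintro ⟨h1, h2⟩ k -
    by_cases hk : k = X.nrm s
    · simp only [if_pos hk]; subst hk; exact h1
    · simp only [if_neg hk]; exact h2 k hk
  · intro h
    refine ⟨?_, fun k hk => ?_⟩
    · have := h (X.nrm s) (mem_univ _)
      simp only [if_pos] at this
      exact this
    · have := h k (mem_univ _)
      simp only [if_neg hk] at this
      exact this

theorem convex_sqo (s : X.S) : Convex ℝ (X.sqo s) := by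
  rw [sqo_eq]
  refine convex_pi fun k _ => ?_
  split_ifs
  · exact convex_singleton _
  · exact convex_Ioo _ _

theorem sq_sub_closure (s : X.S) : X.sq s ⊆ closure (X.sqo s) := by
  rw [sqo_eq, closure_pi_set]
  intro x hx k _
  by_cases hk : k = X.nrm s
  · simp only [if_pos hk]
    apply subset_closure
    have h1 := hx.1 k
    have h2 := hx.2 k
    have h3 := X.s_flat s
    rw [← hk] at h3
    exact le_antisymm (h2.trans h3.ge) h1
  · simp only [if_neg hk]
    rw [closure_Ioo (X.s_lt s k hk).ne]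
    exact ⟨hx.1 k, hx.2 k⟩

theorem mem_frontier_Icc {a b x : V} (hx : x ∈ Icc a b) :
    x ∈ frontier (Icc a b) ↔ ∃ k, x k = a k ∨ x k = b k := by
  rw [isClosed_Icc.frontier_eq]
  have hi : interior (Icc a b) = pi univ (fun k => Ioo (a k) (b k)) := by
    rw [← pi_univ_Icc, interior_pi_set finite_univ]
    simp only [interior_Icc]
  rw [hi]
  constructor
  · rintro ⟨-, h⟩
    by_contra hc
    push Not at hc
    exact h fun k _ => ⟨lt_of_le_of_ne (hx.1 k) (Ne.symm (hc k).1), lt_of_le_of_ne (hx.2 k) (hc k).2⟩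
  · rintro ⟨k, hk⟩
    refine ⟨hx, fun h => ?_⟩
    have := h k (mem_univ _)
    rcases hk with hk | hk
    · exact absurd this.1 (by rw [hk]; exact lt_irrefl _)
    · exact absurd this.2 (by rw [hk]; exact lt_irrefl _)

theorem sq_sub_cubes (s : X.S) : X.sq s ⊆ X.cube (X.sm s) ∧ X.sq s ⊆ X.cube (X.sp s) := by
  have : X.sq s = X.cube (X.sm s) ∩ X.cube (X.sp s) := X.s_eq s
  rw [this]
  exact ⟨inter_subset_left, inter_subset_right⟩

theorem sq_nrm {s : X.S} {x : V} (hx : x ∈ X.sq s) : x (X.nrm s) = X.slo s (X.nrm s) :=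
  le_antisymm ((hx.2 _).trans (X.s_flat s).ge) (hx.1 _)

theorem sq_sub_frontier (s : X.S) {p : X.T} (hp : p = X.sm s ∨ p = X.sp s) :
    X.sq s ⊆ frontier (X.cube p) := by
  intro x hx
  rcases hp with rfl | rfl
  · refine (mem_frontier_Icc ((sq_sub_cubes X s).1 hx)).2 ⟨X.nrm s, Or.inr ?_⟩
    rw [sq_nrm X hx, (X.s_lev s).1]
  · refine (mem_frontier_Icc ((sq_sub_cubes X s).2 hx)).2 ⟨X.nrm s, Or.inl ?_⟩
    rw [sq_nrm X hx, (X.s_lev s).2]

/-- the points of the boundary of a tile off the edges are dense in it -/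
theorem bdry_dense (p : X.T) {x : V} (hx : x ∈ X.cube p) {k : Fin 3}
    (hk : x k = X.lo p k ∨ x k = X.hi p k) (U : Set V) (hU : U ∈ 𝓝 x)
    (hfin : {e | (Icc (X.w (X.a e)) (X.w (X.b e)) ∩ U).Nonempty}.Finite) :
    x ∈ closure {y | y ∈ X.cube p ∧ y k = x k ∧ y ∈ U ∧
      ∀ e, y ∉ Icc (X.w (X.a e)) (X.w (X.b e))} := by
  set F : Fin 3 → Set ℝ := fun l => (fun e => X.w (X.a e) l) ''
    {e | (Icc (X.w (X.a e)) (X.w (X.b e)) ∩ U).Nonempty} with hF
  have hFf : ∀ l, (F l).Finite := fun l => hfin.image _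
  have hcl : x ∈ closure (pi univ (fun l => if l = k then {x l} else
      Ioo (X.lo p l) (X.hi p l) \ F l)) := by
    rw [closure_pi_set]
    intro l _
    by_cases hl : l = k
    · simp only [if_pos hl]; exact subset_closure rfl
    · simp only [if_neg hl]
      have h1 : Dense (F l)ᶜ := (hFf l).countable.dense_compl ℝ
      have h2 : closure (Ioo (X.lo p l) (X.hi p l) ∩ (F l)ᶜ) = closure (Ioo (X.lo p l) (X.hi p l)) :=
        h1.open_subset_closure_inter isOpen_Ioo |> fun h => by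
          apply Subset.antisymm
          · exact closure_mono inter_subset_left
          · exact closure_minimal h isClosed_closure
      rw [Set.sdiff_eq, h2, closure_Ioo (X.lt p l).ne]
      exact ⟨hx.1 l, hx.2 l⟩
  have h3 : x ∈ closure (interior U ∩ pi univ (fun l => if l = k then {x l} else
      Ioo (X.lo p l) (X.hi p l) \ F l)) :=
    isOpen_interior.inter_closure ⟨mem_interior_iff_mem_nhds.2 hU, hcl⟩
  refine closure_mono ?_ h3
  rintro y ⟨hyU, hy⟩
  have hyU := interior_subset hyU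
  have hyk : y k = x k := by
    have := hy k (mem_univ _)
    simp only [if_pos] at this
    exact this
  have hyl : ∀ l, l ≠ k → y l ∈ Ioo (X.lo p l) (X.hi p l) \ F l := by
    intro l hl
    have := hy l (mem_univ _)
    simp only [if_neg hl] at this
    exact this
  refine ⟨⟨fun l => ?_, fun l => ?_⟩, hyk, hyU, fun e he => ?_⟩
  · by_cases hl : l = k
    · subst hl; rw [hyk]; exact hx.1 l
    · exact (hyl l hl).1.1.le
  · by_cases hl : l = k
    · subst hl; rw [hyk]; exact hx.2 l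
    · exact (hyl l hl).1.2.le
  · have hl : ∃ l, l ≠ k ∧ l ≠ X.dir e := by
      generalize X.dir e = d
      clear hcl h3 hy hyl hyk hF hFf hk
      revert k d
      decide
    obtain ⟨l, hlk, hld⟩ := hl
    refine (hyl l hlk).2 ⟨e, ⟨y, he, hyU⟩, ?_⟩
    show X.w (X.a e) l = y l
    exact le_antisymm (he.1 l) ((he.2 l).trans (X.ab_off e l hld).ge)

theorem bdry_cover (p : X.T) {x : V} (hx : x ∈ frontier (X.cube p)) :
    ∃ s, X.sq s ⊆ frontier (X.cube p) ∧ x ∈ X.sq s := by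
  have hxc : x ∈ X.cube p := (isClosed_Icc.frontier_subset) hx
  have hxΩ : x ∈ Ω := X.sub p hxc
  obtain ⟨k, hk⟩ := (mem_frontier_Icc hxc).1 hx
  obtain ⟨U, hU, hfin⟩ := X.lfG x hxΩ
  obtain ⟨U', hU', hfin'⟩ := X.lfS x hxΩ
  have h1 := bdry_dense X p hxc hk U hU hfin
  have h2 : x ∈ closure (interior U' ∩ {y | y ∈ X.cube p ∧ y k = x k ∧ y ∈ U ∧
      ∀ e, y ∉ Icc (X.w (X.a e)) (X.w (X.b e))}) :=
    isOpen_interior.inter_closure ⟨mem_interior_iff_mem_nhds.2 hU', h1⟩
  set I : Set X.S := {s | (Icc (X.slo s) (X.shi s) ∩ U').Nonempty ∧ (p = X.sm s ∨ p = X.sp s)}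
  have hI : I.Finite := hfin'.subset fun s hs => hs.1
  have hsub : interior U' ∩ {y | y ∈ X.cube p ∧ y k = x k ∧ y ∈ U ∧
      ∀ e, y ∉ Icc (X.w (X.a e)) (X.w (X.b e))} ⊆ ⋃ s ∈ I, X.sq s := by
    rintro y ⟨hyU', hyc, hyk, -, hye⟩
    have hyf : ∃ k, y k = X.lo p k ∨ y k = X.hi p k := ⟨k, by rw [hyk]; exact hk⟩
    obtain ⟨s, hs, hs1, hs2⟩ := X.face_cover p y hyc hyf hye
    have hys : y ∈ X.sq s := sqo_sub X s ⟨hs1, hs2⟩
    exact mem_biUnion (show s ∈ I from ⟨⟨y, hys, interior_subset hyU'⟩, hs⟩) hys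
  have hcl : IsClosed (⋃ s ∈ I, X.sq s) := hI.isClosed_biUnion fun s _ => isClosed_Icc
  have h3 : x ∈ ⋃ s ∈ I, X.sq s := closure_minimal hsub hcl h2
  obtain ⟨s, hs, hxs⟩ := mem_iUnion₂.1 h3
  exact ⟨s, sq_sub_frontier X s hs.2, hxs⟩

/-- **Row T1** -/
theorem specCells : SpecCells := by
  intro Ω v X _
  refine ⟨fun p => ?_, fun s => ?_, fun s => ?_, ?_, X.lfT, fun p x hx => bdry_cover X p hx,
    fun s => ⟨X.sm s, sq_sub_frontier X s (Or.inl rfl)⟩, fun s p hn => ?_, fun i j hij => ?_⟩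
  · exact _root_.P073.conBall_Icc_pi (by norm_num) (X.lt p)
  · rw [sdiff_sqo]
    exact (convex_sqo X s).isPreconnected
  · rw [sdiff_sqo]
    exact sq_sub_closure X s
  · apply Subset.antisymm
    · exact iUnion_subset fun p => X.sub p
    · intro x hx
      obtain ⟨p, hp⟩ := X.cover x hx
      exact mem_iUnion.2 ⟨p, hp⟩
  · rintro x ⟨hx1, hx2⟩
    refine ⟨hx1, fun hx3 => hn ?_⟩
    exact sq_sub_frontier X s (X.sqo_tile s p x hx3.1 hx3.2 hx2)
  · rintro x ⟨hx1, hx2⟩
    refine (mem_frontier_Icc hx1).2 ?_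
    by_contra hc
    push Not at hc
    exact X.dis i j hij x (fun k => ⟨lt_of_le_of_ne (hx1.1 k) (Ne.symm (hc k).1),
      lt_of_le_of_ne (hx1.2 k) (hc k).2⟩) hx2

end Vale.Agent.P073.RT.H741
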