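import Vale.Agent.P073.RT.H741.Cells

/-!
# P073, theorem (RT), row T4: replacement of the homeomorphism by `g` on some of the tiles
-/

open Set Metric Topology Filter

namespace Vale.Agent.P073.RT.H741

open Vale.Agent.P073.St (V)
open _root_.P073 (ConBall ConHomeo ConicalWithinAt ConicalOn ConicalSet RelLF)
open _root_.P073.PR720 (LF)
open _root_.P073.PA691 (BoxCx Cells)

variable {Ω Λ : Set V} {g : V → V} {v : V} (X : BoxCx Ω v)

theorem cube_union : ⋃ p, X.cube p = Ω := by
  apply Subset.antisymm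
  · exact iUnion_subset fun p => X.sub p
  · intro x hx
    obtain ⟨p, hp⟩ := X.cover x hx
    exact mem_iUnion.2 ⟨p, hp⟩

theorem cube_sep {i j : X.T} (hij : i ≠ j) {x : V} (hx1 : x ∈ X.cube i) (hx2 : x ∈ X.cube j) :
    x ∈ frontier (X.cube i) := by
  refine (mem_frontier_Icc hx1).2 ?_
  by_contra hc
  push Not at hc
  exact X.dis i j hij x (fun k => ⟨lt_of_le_of_ne (hx1.1 k) (Ne.symm (hc k).1),
    lt_of_le_of_ne (hx1.2 k) (hc k).2⟩) hx2

theorem convex_cube (p : X.T) : Convex ℝ (X.cube p) := convex_Icc _ _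

theorem relLF_cube : RelLF X.cube where
  fin := by
    rw [cube_union]
    exact X.lfT
  closed := fun i z _ hz => by
    have : IsClosed (X.cube i) := isClosed_Icc
    rwa [this.closure_eq] at hz

theorem cube_interior_ne (p : X.T) : (interior (X.cube p)).Nonempty := by
  have hi : interior (X.cube p) = pi univ (fun k => Ioo (X.lo p k) (X.hi p k)) := by
    show interior (Icc (X.lo p) (X.hi p)) = _
    rw [← pi_univ_Icc, interior_pi_set finite_univ]
    simp only [interior_Icc]
  rw [hi]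
  exact ⟨fun k => (X.lo p k + X.hi p k) / 2, fun k _ => ⟨by have := X.lt p k; linarith,
    by have := X.lt p k; linarith⟩⟩

/-- if `H = g` on the frontier of a tile and `H` maps the tile into the image of the tile, then the
two images are the same -/
theorem image_tile (hg : St.IsHomeo Ω Λ g) (H : ConHomeo Ω Λ) (p : X.T)
    (hfr : ∀ x ∈ frontier (X.cube p), H.toFun x = g x)
    (him : ∀ x ∈ X.cube p, H.toFun x ∈ g '' X.cube p) :
    g '' X.cube p = H.toFun '' X.cube p := by
  obtain ⟨gi, ⟨hgi1, hgi2⟩, hgc, hgic⟩ := hg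
  have hsub : X.cube p ⊆ Ω := X.sub p
  have hcl : IsClosed (X.cube p) := isClosed_Icc
  have hfs : frontier (X.cube p) ⊆ X.cube p := hcl.frontier_subset
  -- θ = H⁻¹ ∘ g
  set θ : V → V := fun x => H.invFun (g x) with hθ
  have hθc : ContinuousOn θ Ω := H.cont_inv.comp hgc fun x hx => (hgi1 x hx).1
  have hHθ : ∀ x ∈ Ω, H.toFun (θ x) = g x := fun x hx => H.right_inv (hgi1 x hx).1
  have hθf : ∀ x ∈ frontier (X.cube p), θ x = x := fun x hx => by
    show H.invFun (g x) = x
    rw [← hfr x hx, H.left_inv (hsub (hfs hx))]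
  -- a point of the open tile is mapped to the open tile or outside of the tile
  have hkey : ∀ x ∈ interior (X.cube p), θ x ∈ X.cube p → θ x ∈ interior (X.cube p) := by
    intro x hx h1
    by_contra h2
    have h3 : θ x ∈ frontier (X.cube p) := by
      rw [hcl.frontier_eq]; exact ⟨h1, h2⟩
    have h4 := hHθ x (hsub (interior_subset hx))
    rw [hfr _ h3] at h4
    have h5 : θ x = x := by
      have a := (hgi1 _ (hsub h1)).2
      have b := (hgi1 x (hsub (interior_subset hx))).2
      rw [← a, h4, b]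
    rw [h5, hcl.frontier_eq] at h3
    exact h3.2 hx
  have hint : interior (X.cube p) ⊆ Ω := interior_subset.trans hsub
  have hpre : IsPreconnected (interior (X.cube p)) :=
    (convex_cube X p).interior.isPreconnected
  have hu : IsOpen (interior (X.cube p) ∩ θ ⁻¹' interior (X.cube p)) :=
    (hθc.mono hint).isOpen_inter_preimage isOpen_interior isOpen_interior
  have hv : IsOpen (interior (X.cube p) ∩ θ ⁻¹' (X.cube p)ᶜ) :=
    (hθc.mono hint).isOpen_inter_preimage isOpen_interior hcl.isOpen_compl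
  have hdis : Disjoint (interior (X.cube p) ∩ θ ⁻¹' interior (X.cube p))
      (interior (X.cube p) ∩ θ ⁻¹' (X.cube p)ᶜ) := by
    rw [Set.disjoint_left]
    rintro x ⟨-, h1⟩ ⟨-, h2⟩
    exact h2 (interior_subset h1)
  have hun : interior (X.cube p) ⊆ (interior (X.cube p) ∩ θ ⁻¹' interior (X.cube p)) ∪
      (interior (X.cube p) ∩ θ ⁻¹' (X.cube p)ᶜ) := by
    intro x hx
    by_cases h : θ x ∈ X.cube p
    · exact Or.inl ⟨hx, hkey x hx h⟩
    · exact Or.inr ⟨hx, h⟩
  have hne : (interior (X.cube p) ∩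
      (interior (X.cube p) ∩ θ ⁻¹' interior (X.cube p))).Nonempty := by
    obtain ⟨z, hz⟩ := cube_interior_ne X p
    obtain ⟨w, hw, hwz⟩ := him z (interior_subset hz)
    have hθw : θ w = z := by
      show H.invFun (g w) = z
      rw [hwz, H.left_inv (hint hz)]
    have hwi : w ∈ interior (X.cube p) := by
      by_contra hn
      have h3 : w ∈ frontier (X.cube p) := by
        rw [hcl.frontier_eq]; exact ⟨hw, hn⟩
      rw [hθf w h3] at hθw
      rw [hθw, hcl.frontier_eq] at h3
      exact h3.2 hz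
    exact ⟨w, hwi, hwi, by show θ w ∈ interior (X.cube p); rw [hθw]; exact hz⟩
  have hall := hpre.subset_left_of_subset_union hu hv hdis hun hne
  apply Subset.antisymm
  · rintro _ ⟨x, hx, rfl⟩
    have hθx : θ x ∈ X.cube p := by
      by_cases hi : x ∈ interior (X.cube p)
      · exact interior_subset (hall hi).2
      · have h3 : x ∈ frontier (X.cube p) := by
          rw [hcl.frontier_eq]; exact ⟨hx, hi⟩
        rw [hθf x h3]; exact hx
    exact ⟨θ x, hθx, hHθ x (hsub hx)⟩
  · rintro _ ⟨x, hx, rfl⟩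
    exact him x hx

/-- **Replacement** -/
theorem exists_replace (hΛ : IsOpen Λ) (hg : St.IsHomeo Ω Λ g) (H : ConHomeo Ω Λ) (T' : Set X.T)
    (hc : ∀ p ∈ T', ∀ x ∈ X.cube p, ConicalWithinAt g Ω x)
    (hfr : ∀ p ∈ T', ∀ x ∈ frontier (X.cube p), H.toFun x = g x)
    (him : ∀ p ∈ T', ∀ x ∈ X.cube p, H.toFun x ∈ g '' X.cube p) :
    ∃ h : ConHomeo Ω Λ, (∀ p ∈ T', ∀ x ∈ X.cube p, h.toFun x = g x) ∧
      ∀ p ∉ T', ∀ x ∈ X.cube p, h.toFun x = H.toFun x := by
  classical
  have himg : ∀ p ∈ T', g '' X.cube p = H.toFun '' X.cube p := fun p hp =>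
    image_tile X hg H p (hfr p hp) (him p hp)
  obtain ⟨gi, ⟨hgi1, hgi2⟩, hgc, hgic⟩ := hg
  have hsub : ∀ p, X.cube p ⊆ Ω := X.sub
  let h : ∀ p, ConHomeo (X.cube p) (H.toFun '' X.cube p) := fun p =>
    if hp : p ∈ T' then
      { toFun := g
        invFun := gi
        mapsTo := fun x hx => by rw [← himg p hp]; exact ⟨x, hx, rfl⟩
        mapsTo_inv := fun y hy => by
          rw [← himg p hp] at hy
          obtain ⟨x, hx, rfl⟩ := hy
          rw [(hgi1 x (hsub p hx)).2]; exact hx
        left_inv := fun x hx => (hgi1 x (hsub p hx)).2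
        right_inv := fun y hy => (hgi2 y (by
          obtain ⟨x, hx, rfl⟩ := hy
          exact H.mapsTo (hsub p hx))).2
        cont := hgc.mono (hsub p)
        cont_inv := hgic.mono (by
          rintro _ ⟨x, hx, rfl⟩
          exact H.mapsTo (hsub p hx))
        conical := fun x hx => (hc p hp x hx).mono_set
          ((_root_.P073.Convex.conicalSet (convex_cube X p)) x hx) (hsub p) }
    else H.restr (_root_.P073.Convex.conicalSet (convex_cube X p)) (hsub p)
  have h1 : ∀ p ∈ T', (h p).toFun = g := fun p hp => by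
    simp only [h]; rw [dif_pos hp]
  have h2 : ∀ p ∉ T', (h p).toFun = H.toFun := fun p hp => by
    simp only [h]; rw [dif_neg hp]; rfl
  -- on the frontier of every tile of `T'`, everything is `g`
  have hov : ∀ i j, ∀ x ∈ X.cube i ∩ X.cube j, (h i).toFun x = (h j).toFun x := by
    rintro i j x ⟨hi, hj⟩
    by_cases hij : i = j
    · subst hij; rfl
    by_cases hiT : i ∈ T' <;> by_cases hjT : j ∈ T'
    · rw [h1 i hiT, h1 j hjT]
    · rw [h1 i hiT, h2 j hjT, hfr i hiT x (cube_sep X hij hi hj)]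
    · rw [h2 i hiT, h1 j hjT, hfr j hjT x (cube_sep X (Ne.symm hij) hj hi)]
    · rw [h2 i hiT, h2 j hjT]
  have hY : RelLF (fun p => H.toFun '' X.cube p) := by
    refine ⟨?_, fun i z _ hz => ?_⟩
    · rintro z hz
      obtain ⟨i, x, hx, rfl⟩ := mem_iUnion.1 hz
      obtain ⟨U, hU, hfin⟩ := X.lfT x (hsub i hx)
      have hxΩ := hsub i hx
      refine ⟨Λ ∩ H.invFun ⁻¹' U, ?_, ?_⟩
      · have hcont : ContinuousAt H.invFun (H.toFun x) :=
          H.cont_inv.continuousAt (hΛ.mem_nhds (H.mapsTo hxΩ))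
        refine inter_mem (hΛ.mem_nhds (H.mapsTo hxΩ)) (hcont.preimage_mem_nhds ?_)
        rw [H.left_inv hxΩ]; exact hU
      · refine hfin.subset ?_
        rintro j ⟨_, ⟨y, hy, rfl⟩, hyU⟩
        refine ⟨y, hy, ?_⟩
        have := hyU.2
        rw [mem_preimage, H.left_inv (hsub j hy)] at this
        exact this
    · have hcp : IsCompact (H.toFun '' X.cube i) :=
        (isCompact_Icc : IsCompact (Icc (X.lo i) (X.hi i))).image_of_continuousOn
          (H.cont.mono (hsub i))
      rwa [hcp.isClosed.closure_eq] at hz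
  obtain ⟨Φ, hΦ⟩ := ConHomeo.exists_glue_family (relLF_cube X) hY h
    (fun i j x hx => hov i j x hx) (by
      rintro i j y ⟨⟨x, hx, rfl⟩, ⟨x', hx', he⟩⟩
      have hxx : x' = x := H.injOn (hsub j hx') (hsub i hx) he
      subst hxx
      by_cases hij : i = j
      · subst hij
        by_cases hiT : i ∈ T'
        · rw [h1 i hiT, inter_self, himg i hiT]; exact ⟨x', hx, rfl⟩
        · rw [h2 i hiT]; exact ⟨x', ⟨hx, hx'⟩, rfl⟩
      · refine ⟨x', ⟨hx, hx'⟩, ?_⟩
        by_cases hiT : i ∈ T'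
        · rw [h1 i hiT, hfr i hiT x' (cube_sep X hij hx hx')]
        · rw [h2 i hiT])
  have hYu : ⋃ p, H.toFun '' X.cube p = Λ := by
    rw [← image_iUnion, cube_union, H.image_eq]
  refine ⟨Φ.cast (cube_union X) hYu, fun p hp x hx => ?_, fun p hp x hx => ?_⟩
  · rw [ConHomeo.cast_toFun, (hΦ p).1 hx, h1 p hp]
  · rw [ConHomeo.cast_toFun, (hΦ p).1 hx, h2 p hp]

end Vale.Agent.P073.RT.H741
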