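import Vale.Agent.P073.RT.H741.Cells

/-!
# P073, theorem (RT), row T4: neighbourhoods of the parts of `K` in the squares
-/

open Set Metric Topology Filter

namespace Vale.Agent.P073.RT.H741

open Vale.Agent.P073.St (V)
open _root_.P073.PR720 (LF)
open _root_.P073.PA691 (BoxCx Cells)

variable {Ω K N : Set V} {v : V} (X : BoxCx Ω v)

/-- a subfamily of a locally finite family of closed sets has a relatively closed union -/
theorem lf_closed {ι : Type*} {A : ι → Set V} {W : Set V} (h : LF A W) (hA : ∀ i, IsClosed (A i))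
    (J : Set ι) {z : V} (hz : z ∈ W) (hcl : z ∈ closure (⋃ i ∈ J, A i)) : ∃ i ∈ J, z ∈ A i := by
  obtain ⟨U, hU, hfin⟩ := h z hz
  have h1 : z ∈ closure (⋃ i ∈ {i | (A i ∩ U).Nonempty} ∩ J, A i) := by
    rw [mem_closure_iff_nhds] at hcl ⊢
    intro t ht
    obtain ⟨y, ⟨hyt, hyU⟩, hyA⟩ := hcl (t ∩ U) (inter_mem ht hU)
    obtain ⟨i, hiJ, hi⟩ := mem_iUnion₂.1 hyA
    exact ⟨y, hyt, mem_biUnion (show i ∈ {i | (A i ∩ U).Nonempty} ∩ J from ⟨⟨y, hi, hyU⟩, hiJ⟩) hi⟩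
  have h2 : IsClosed (⋃ i ∈ {i | (A i ∩ U).Nonempty} ∩ J, A i) :=
    (hfin.inter_of_left J).isClosed_biUnion fun i _ => hA i
  rw [h2.closure_eq] at h1
  obtain ⟨i, hi, hzi⟩ := mem_iUnion₂.1 h1
  exact ⟨i, hi.2, hzi⟩

/-- centre of a tile -/
noncomputable def mid (p : X.T) : V := fun k => (X.lo p k + X.hi p k) / 2

theorem mid_mem (p : X.T) : mid X p ∈ X.cube p :=
  ⟨fun k => by have := X.lt p k; simp only [mid]; linarith,
    fun k => by have := X.lt p k; simp only [mid]; linarith⟩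

theorem mid_notMem_frontier (p : X.T) : mid X p ∉ frontier (X.cube p) := by
  intro h
  obtain ⟨k, hk | hk⟩ := (mem_frontier_Icc (mid_mem X p)).1 h
  · have := X.lt p k; simp only [mid] at hk; linarith
  · have := X.lt p k; simp only [mid] at hk; linarith

theorem isClosed_sdiff_sqo (s : X.S) : IsClosed (X.sq s \ X.sqo s) := by
  have h1 : X.sq s \ X.sqo s = X.sq s ∩ (⋂ k ∈ {k | k ≠ X.nrm s},
      ({x : V | X.slo s k < x k} ∩ {x : V | x k < X.shi s k}))ᶜ := by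
    ext x
    constructor
    · rintro ⟨h1, h2⟩
      refine ⟨h1, fun h3 => h2 ⟨sq_nrm X h1, fun k hk => ?_⟩⟩
      exact mem_iInter₂.1 h3 k hk
    · rintro ⟨h1, h2⟩
      refine ⟨h1, fun h3 => h2 (mem_iInter₂.2 fun k hk => h3.2 k hk)⟩
  rw [h1]
  refine isClosed_Icc.inter (IsOpen.isClosed_compl ?_)
  refine (toFinite {k | k ≠ X.nrm s}).isOpen_biInter fun k _ => ?_
  exact (isOpen_lt continuous_const (continuous_apply k)).inter
    (isOpen_lt (continuous_apply k) continuous_const)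

/-- what has to be avoided -/
def avoid (N : Set V) (s : X.S) : Set V :=
  Nᶜ ∪ (X.sq s \ X.sqo s) ∪ (⋃ s' ∈ {s' | s' ≠ s}, X.sq s') ∪
    (⋃ p ∈ {p | p ≠ X.sm s ∧ p ≠ X.sp s}, X.cube p) ∪ ⋃ p ∈ (univ : Set X.T), {mid X p}

theorem notMem_closure_avoid (hN : IsOpen N) (hNΩ : N ⊆ Ω) {s : X.S} {x : V} (hx : x ∈ X.sqo s)
    (hxN : x ∈ N) : x ∉ closure (avoid X N s) := by
  have hxΩ := hNΩ hxN
  unfold avoid
  rw [closure_union, closure_union, closure_union, closure_union]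
  rintro ((((h | h) | h) | h) | h)
  · rw [hN.isClosed_compl.closure_eq] at h
    exact h hxN
  · rw [(isClosed_sdiff_sqo X s).closure_eq] at h
    exact h.2 hx
  · obtain ⟨s', hs', h'⟩ := lf_closed X.lfS (fun s => isClosed_Icc) _ hxΩ h
    exact X.sqo_disj s s' (Ne.symm hs') x hx.1 hx.2 h'
  · obtain ⟨p, hp, h'⟩ := lf_closed X.lfT (fun p => isClosed_Icc) _ hxΩ h
    rcases X.sqo_tile s p x hx.1 hx.2 h' with h2 | h2
    · exact hp.1 h2
    · exact hp.2 h2
  · obtain ⟨p, -, h'⟩ := lf_closed (A := fun p => {mid X p}) (X.lfT.subset fun p => by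
      rw [singleton_subset_iff]; exact mid_mem X p) (fun p => isClosed_singleton) _ hxΩ h
    rw [mem_singleton_iff] at h'
    subst h'
    exact mid_notMem_frontier X p
      (sq_sub_frontier X s (X.sqo_tile s p _ hx.1 hx.2 (mid_mem X p)) (sqo_sub X s hx))

theorem mem_sqo_of_mem (hKe : ∀ x ∈ K, ∀ e, x ∉ X.edge e) {s : X.S} {x : V} (hxK : x ∈ K)
    (hx : x ∈ X.sq s) : x ∈ X.sqo s := by
  refine ⟨sq_nrm X hx, ?_⟩
  by_contra hc
  push Not at hc
  obtain ⟨k, hk, hk2⟩ := hc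
  have h1 : x k = X.slo s k ∨ x k = X.shi s k := by
    rcases eq_or_lt_of_le (hx.1 k) with h | h
    · exact Or.inl h.symm
    · exact Or.inr (le_antisymm (hx.2 k) (hk2 h))
  obtain ⟨e, -, he⟩ := X.sq_bd s x hx ⟨k, hk, h1⟩
  exact hKe x hxK e he

/-- **Neighbourhoods of the squares** -/
theorem exists_nbhds (hKo : IsOpen (Ω \ K))
    (hKe : ∀ x ∈ K, ∀ e, x ∉ X.edge e) (hN : IsOpen N) (hNΩ : N ⊆ Ω)
    (hKN : ∀ s, K ∩ X.sq s ⊆ N) : ∃ U : X.S → Set V, (∀ s, IsOpen (U s)) ∧ (∀ s, U s ⊆ N) ∧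
      (∀ s, K ∩ X.sq s ⊆ U s) ∧ (∀ s, U s ⊆ X.cube (X.sm s) ∪ X.cube (X.sp s)) ∧
      (∀ s p, U s ∩ frontier (X.cube p) ⊆ X.sqo s) ∧
      (∀ s p, p ≠ X.sm s → p ≠ X.sp s → Disjoint (U s) (X.cube p)) ∧
      (∀ s s', s ≠ s' → Disjoint (U s) (U s')) ∧
      (∀ s p, (fun k => (X.lo p k + X.hi p k) / 2) ∉ U s) ∧
      (∀ s, K ∩ U s ∩ {x | x (X.nrm s) = X.slo s (X.nrm s)} = K ∩ X.sq s) ∧
      ∀ s, IsCompact (K ∩ X.sq s) := by
  set U : X.S → Set V := fun s =>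
    {x | infEDist x (K ∩ X.sq s) < infEDist x (avoid X N s)} with hU
  have hav : ∀ s, ∀ x ∈ U s, x ∉ avoid X N s := by
    intro s x hx h
    have h1 : infEDist x (K ∩ X.sq s) < infEDist x (avoid X N s) := hx
    rw [infEDist_zero_of_mem h] at h1
    exact absurd h1 not_lt_zero
  have hUN : ∀ s, U s ⊆ N := fun s x hx => by
    by_contra hn
    exact hav s x hx (Or.inl (Or.inl (Or.inl (Or.inl hn))))
  have hKU : ∀ s, K ∩ X.sq s ⊆ U s := by
    rintro s x hx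
    show infEDist x (K ∩ X.sq s) < infEDist x (avoid X N s)
    rw [infEDist_zero_of_mem hx]
    exact infEDist_pos_iff_notMem_closure.2
      (notMem_closure_avoid X hN hNΩ (mem_sqo_of_mem X hKe hx.1 hx.2) (hKN s hx))
  have hcube : ∀ s p, p ≠ X.sm s → p ≠ X.sp s → Disjoint (U s) (X.cube p) := by
    intro s p h1 h2
    rw [Set.disjoint_left]
    intro x hx hxp
    exact hav s x hx (Or.inl (Or.inr (mem_biUnion (show p ∈ {p | p ≠ X.sm s ∧ p ≠ X.sp s} from
      ⟨h1, h2⟩) hxp)))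
  have hUc : ∀ s, U s ⊆ X.cube (X.sm s) ∪ X.cube (X.sp s) := by
    intro s x hx
    obtain ⟨p, hp⟩ := X.cover x (hNΩ (hUN s hx))
    by_cases h1 : p = X.sm s
    · subst h1; exact Or.inl hp
    by_cases h2 : p = X.sp s
    · subst h2; exact Or.inr hp
    exact absurd hp (Set.disjoint_left.1 (hcube s p h1 h2) hx)
  have hUf : ∀ s p, U s ∩ frontier (X.cube p) ⊆ X.sqo s := by
    rintro s p x ⟨hx, hxf⟩
    obtain ⟨s', -, hxs'⟩ := bdry_cover X p hxf
    by_cases hs : s' = s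
    · subst hs
      by_contra hn
      exact hav s' x hx (Or.inl (Or.inl (Or.inl (Or.inr ⟨hxs', hn⟩))))
    · exact absurd (Or.inl (Or.inl (Or.inr (mem_biUnion (show s' ∈ {s' | s' ≠ s} from hs) hxs'))))
        (hav s x hx)
  refine ⟨U, fun s => isOpen_lt continuous_infEDist continuous_infEDist, hUN, hKU, hUc, hUf,
    hcube, ?_, ?_, ?_, ?_⟩
  · intro s s' hss
    rw [Set.disjoint_left]
    intro x hx hx'
    have h1 : infEDist x (K ∩ X.sq s) < infEDist x (avoid X N s) := hx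
    have h2 : infEDist x (K ∩ X.sq s') < infEDist x (avoid X N s') := hx'
    have h3 : infEDist x (avoid X N s) ≤ infEDist x (K ∩ X.sq s') := by
      refine infEDist_anti fun y hy => ?_
      exact Or.inl (Or.inl (Or.inr (mem_biUnion (show s' ∈ {s' | s' ≠ s} from Ne.symm hss) hy.2)))
    have h4 : infEDist x (avoid X N s') ≤ infEDist x (K ∩ X.sq s) := by
      refine infEDist_anti fun y hy => ?_
      exact Or.inl (Or.inl (Or.inr (mem_biUnion (show s ∈ {t | t ≠ s'} from hss) hy.2)))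
    exact absurd (h1.trans_le (h3.trans (h2.le.trans h4))) (lt_irrefl _)
  · intro s p h
    exact hav s _ h (Or.inr (mem_biUnion (mem_univ p) rfl))
  · intro s
    apply Subset.antisymm
    · rintro x ⟨⟨hxK, hxU⟩, hxn⟩
      refine ⟨hxK, sqo_sub X s ?_⟩
      rcases hUc s hxU with h | h
      · refine hUf s (X.sm s) ⟨hxU, (mem_frontier_Icc h).2 ⟨X.nrm s, Or.inr ?_⟩⟩
        rw [(X.s_lev s).1]; exact hxn
      · refine hUf s (X.sp s) ⟨hxU, (mem_frontier_Icc h).2 ⟨X.nrm s, Or.inl ?_⟩⟩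
        rw [(X.s_lev s).2]; exact hxn
    · rintro x ⟨hxK, hx⟩
      exact ⟨⟨hxK, hKU s ⟨hxK, hx⟩⟩, sq_nrm X hx⟩
  · intro s
    have hsub : X.sq s ⊆ Ω := ((sq_sub_cubes X s).1).trans (X.sub _)
    have h1 : K ∩ X.sq s = X.sq s \ (Ω \ K) := by
      ext x
      constructor
      · rintro ⟨h1, h2⟩
        exact ⟨h2, fun h => h.2 h1⟩
      · rintro ⟨h1, h2⟩
        refine ⟨?_, h1⟩
        by_contra hn
        exact h2 ⟨hsub h1, hn⟩
    rw [h1]
    exact IsCompact.diff (isCompact_Icc : IsCompact (Icc (X.slo s) (X.shi s))) hKo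

end Vale.Agent.P073.RT.H741
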